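import Vale.Agent.P121.Main

open MeasureTheory Vale.Agent.P121 in
theorem Vale.Agent.Results.P121.NoMonge.result :
    ∃ μ : Measure E3, IsProbabilityMeasure μ ∧ μ.AbsolutelyContinuous volume ∧ kant μ < ⊤ ∧
      ∀ T2 T3 : E3 → E3, Measurable T2 → Measurable T3 → μ.map T2 = μ → μ.map T3 = μ →
        ∫⁻ x, cost x (T2 x) (T3 x) ∂μ ≠ kant μ :=
  Vale.Agent.P121.main
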